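import Vale.Agent.P183.Up.Basic

/-!
# Cutting a representable lattice

If `M` is representable and `s`, `b` are elements of `M`, then the part of `M` consisting of the
elements below `s` or above `b` is representable: add to the algebra all maps with at most two
values which are constant on the classes of `s` and have their two values in a class of `b`.

The subgroup lattice of a finite group is representable, on the group itself, with the left
translations as operations.
-/

namespace Vale.Agent.P183.Up

universe u

/-- A closed setoid of a representation with the cut property is below `s` or above `b`. -/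
theorem closed_cut {M : Type u} [PartialOrder M] {A : Type} (lev : M → Setoid A) (s b : M)
    (hs : ∀ t : M, t ≤ s ∨ b ≤ t) (hmono : ∀ s t : M, s ≤ t → lev s ≤ lev t) (θ : Setoid A)
    (hθ : IsClosed lev θ) (x y : A) (hxy : θ x y) (hnot : ¬ lev s x y) (u v : A)
    (huv : lev b u v) : θ u v := by
  classical
  let g : A → A := fun z => if lev s x z then u else v
  have hg : IsMor lev g := by
    intro t p q hpq
    rcases hs t with h | h
    · have hp : lev s p q := hmono t s h hpq
      have hiff : lev s x p ↔ lev s x q :=
        ⟨fun h1 => (lev s).trans' h1 hp, fun h1 => (lev s).trans' h1 ((lev s).symm' hp)⟩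
      have : g p = g q := by
        simp only [g, hiff]
      simp only [this]
      exact (lev t).refl' _
    · have huvt : lev t u v := hmono b t h huv
      simp only [g]
      split_ifs
      · exact (lev t).refl' _
      · exact huvt
      · exact (lev t).symm' huvt
      · exact (lev t).refl' _
  have h := hθ g hg x y hxy
  have hx : g x = u := by simp only [g]; rw [if_pos ((lev s).refl' x)]
  have hy : g y = v := by simp only [g]; rw [if_neg hnot]
  rwa [hx, hy] at h

/-- The cut of a representable partial order is representable. -/
theorem representable_cut {M : Type u} [PartialOrder M] (s b : M) (h : Representable M) :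
    Representable {x : M // x ≤ s ∨ b ≤ x} := by
  classical
  obtain ⟨A, hA, hA', φ, h1, h2⟩ := exists_levels h
  refine representable_of_levels (fun x => φ x.1) (fun x y => h1 x.1 y.1) (fun θ hθ => ?_)
  have hcl : IsClosed φ θ := fun f hf x y hxy => hθ f (fun t x y hxy => hf t.1 x y hxy) x y hxy
  obtain ⟨t, rfl⟩ := h2 θ hcl
  refine ⟨⟨t, ?_⟩, rfl⟩
  by_cases hts : t ≤ s
  · exact Or.inl hts
  right
  have hns : ¬ φ t ≤ φ s := fun h => hts ((h1 t s).1 h)
  obtain ⟨x, y, hxy, hnot⟩ : ∃ x y, φ t x y ∧ ¬ φ s x y := by
    by_contra hc
    push Not at hc
    exact hns (fun a b hab => hc a b hab)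
  refine (h1 b t).1 (fun u v huv => ?_)
  let g : A → A := fun z => if φ s x z then u else v
  have hg : IsMor (fun x : {x : M // x ≤ s ∨ b ≤ x} => φ x.1) g := by
    rintro ⟨w, hw⟩ p q hpq
    rcases hw with h' | h'
    · have hp : φ s p q := (h1 w s).2 h' hpq
      have hiff : φ s x p ↔ φ s x q :=
        ⟨fun h3 => (φ s).trans' h3 hp, fun h3 => (φ s).trans' h3 ((φ s).symm' hp)⟩
      have : g p = g q := by
        simp only [g, hiff]
      simp only [this]
      exact (φ w).refl' _
    · have huvt : φ w u v := (h1 b w).2 h' huv
      simp only [g]
      split_ifs
      · exact (φ w).refl' _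
      · exact huvt
      · exact (φ w).symm' huvt
      · exact (φ w).refl' _
  have h3 := hθ g hg x y hxy
  have hx : g x = u := by simp only [g]; rw [if_pos ((φ s).refl' x)]
  have hy : g y = v := by simp only [g]; rw [if_neg hnot]
  rwa [hx, hy] at h3

/-- The setoid of the left cosets of a subgroup. -/
def cosetRel {G : Type} [Group G] (K : Subgroup G) : Setoid G where
  r x y := x⁻¹ * y ∈ K
  iseqv :=
    ⟨fun x => by simp [K.one_mem], fun {x y} h => by
        have := K.inv_mem h
        simpa using this, fun {x y z} h1 h2 => by
        have := K.mul_mem h1 h2
        simpa [mul_assoc] using this⟩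

/-- The subgroup lattice of a finite group is representable. -/
theorem representable_subgroup (G : Type) [Group G] [Finite G] : Representable (Subgroup G) := by
  refine representable_of_levels cosetRel (fun s t => ?_) (fun θ hθ => ?_)
  · constructor
    · intro h x hx
      have : (cosetRel s) 1 x := by
        show (1 : G)⁻¹ * x ∈ s
        simpa using hx
      have h2 : (cosetRel t) 1 x := h this
      have h3 : (1 : G)⁻¹ * x ∈ t := h2
      simpa using h3
    · intro h x y hxy
      exact h hxy
  · have hl : ∀ (g x y : G), θ x y → θ (g * x) (g * y) := by
      intro g x y hxy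
      refine hθ (fun z => g * z) (fun t p q hpq => ?_) x y hxy
      show (g * p)⁻¹ * (g * q) ∈ t
      have : (g * p)⁻¹ * (g * q) = p⁻¹ * q := by group
      rw [this]
      exact hpq
    let K : Subgroup G :=
      { carrier := {z | θ 1 z}
        one_mem' := θ.refl' 1
        mul_mem' := fun {a b} ha hb => by
          have h1 := hl a 1 b hb
          rw [mul_one] at h1
          exact θ.trans' ha h1
        inv_mem' := fun {a} ha => by
          have h1 := hl a⁻¹ 1 a ha
          simp only [mul_one, inv_mul_cancel] at h1
          exact θ.symm' h1 }
    refine ⟨K, ?_⟩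
    apply Setoid.ext
    intro x y
    constructor
    · intro hxy
      have h1 := hl x⁻¹ x y hxy
      rw [inv_mul_cancel] at h1
      exact h1
    · intro hxy
      have h1 : θ 1 (x⁻¹ * y) := hxy
      have h2 := hl x 1 (x⁻¹ * y) h1
      simpa using h2

/-- The cuts of the subgroup lattice of a finite group are representable. -/
theorem representable_subgroup_cut (G : Type) [Group G] [Finite G] (S B : Subgroup G) :
    Representable {K : Subgroup G // K ≤ S ∨ B ≤ K} :=
  representable_cut S B (representable_subgroup G)

end Vale.Agent.P183.Up
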